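import Mathlib
import Vale.Agent.Lib.P252.Defs
import Vale.Agent.Lib.P252.Separable

/-!
P252 (affine Bernstein problem), entire separable case, every dimension `n`:
if `u(x) = ∑ i, f i (x i)` is smooth on `ℝ^n` with positive definite Hessian everywhere and
solves the affine maximal equation, then `u` is a quadratic polynomial whose graph is an
elliptic paraboloid.
-/

namespace Vale.Agent.Results.P252.A_Separable

open Vale.Agent.Lib.P252

theorem result (n : ℕ) (u : (Fin n → ℝ) → ℝ) (hu : ContDiff ℝ ((⊤ : ℕ∞) : WithTop ℕ∞) u)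
    (hpos : ∀ x, (hessian u x).PosDef) (hAM : IsAffineMaximal u)
    (f : Fin n → ℝ → ℝ) (hsep : ∀ x, u x = ∑ i, f i (x i)) :
    ∃ (A b : Fin n → ℝ) (c : ℝ), (∀ i, 0 < A i) ∧
      ∀ x, u x = ∑ i, (A i / 2 * (x i) ^ 2 + b i * x i) + c :=
  separable_bernstein n u hu hpos hAM f hsep

end Vale.Agent.Results.P252.A_Separable
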